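import Vale.Agent.P125.Char.Main
import Vale.Agent.P125.TS.Main
import Vale.Agent.P125.P32.Asm_32

namespace Vale.Agent.Results.P125.Combined

open Vale.Agent.P125
open scoped BigOperators

/-- Markov type passes to subspaces -/
lemma subspace_markovType (X : Type*) [NormedAddCommGroup X] [NormedSpace ℝ X]
    (Y : Submodule ℝ X) (p K : ℝ) (h : HasMarkovTypeWith X p K) : HasMarkovTypeWith Y p K := by
  intro S _ _ μ P h0 h1 h2 h3 h4 f t ht
  have := h S μ P h0 h1 h2 h3 h4 (fun i => (f i : X)) t ht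
  simpa only [← Submodule.coe_sub, Submodule.coe_norm] using this

/-- (A) For every real normed space `X`:
(1) `X` has Markov type `p` for some `p > 1` if and only if for ONE time `t0 ≥ 2` and ONE `a < 1`
every stationary reversible finite Markov chain and every `f : S → X` satisfy
`E ‖f(Z_t0) - f(Z_0)‖^2 ≤ a * t0^2 * E ‖f(Z_1) - f(Z_0)‖^2`;
(2) Markov type `p` with constant `K` passes to quotients by closed subspaces;
(3) for a closed subspace `Y`, `X` has nontrivial Markov type iff both `Y` and `X ⧸ Y` have.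
(B) The summing operators `ℓ_1^n → ℓ_∞^n` have a Markov type inequality with a power saving,
uniformly in `n`: for ALL `t ≥ 1`, ALL `n`, all such chains and all `f : S → ℝ^n`
`E max_k |∑_{l < k} (f(Z_t) - f(Z_0))_l|^2 ≤ 24 * t^(11/6) * E (∑_l |(f(Z_1) - f(Z_0))_l|)^2`. -/
theorem result :
    (∀ (X : Type*) [NormedAddCommGroup X] [NormedSpace ℝ X],
      ((∃ p K : ℝ, 1 < p ∧ 0 ≤ K ∧ HasMarkovTypeWith X p K) ↔
        (∃ (t0 : ℕ) (a : ℝ), 2 ≤ t0 ∧ a < 1 ∧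
          ∀ (S : Type) [Fintype S] [DecidableEq S] (μ : S → ℝ) (P : Matrix S S ℝ),
          (∀ i, 0 ≤ μ i) → ∑ i, μ i = 1 → (∀ i j, 0 ≤ P i j) → (∀ i, ∑ j, P i j = 1) →
          (∀ i j, μ i * P i j = μ j * P j i) → ∀ f : S → X,
            ∑ i, ∑ j, μ i * (P ^ t0) i j * ‖f j - f i‖ ^ 2 ≤
              a * (t0 : ℝ) ^ 2 * ∑ i, ∑ j, μ i * P i j * ‖f j - f i‖ ^ 2)) ∧
      (∀ (Y : Submodule ℝ X) [IsClosed (Y : Set X)] (p K : ℝ), 0 < p → 0 ≤ K →
        HasMarkovTypeWith X p K → HasMarkovTypeWith (X ⧸ Y) p K) ∧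
      (∀ (Y : Submodule ℝ X) [IsClosed (Y : Set X)],
        (∃ p K : ℝ, 1 < p ∧ 0 ≤ K ∧ HasMarkovTypeWith X p K) ↔
          ((∃ p K : ℝ, 1 < p ∧ 0 ≤ K ∧ HasMarkovTypeWith Y p K) ∧
            (∃ p K : ℝ, 1 < p ∧ 0 ≤ K ∧ HasMarkovTypeWith (X ⧸ Y) p K)))) ∧
    (∀ t : ℕ, 1 ≤ t →
      ∀ (n : ℕ) (S : Type) [Fintype S] [DecidableEq S] (μ : S → ℝ) (P : Matrix S S ℝ),
        (∀ i, 0 ≤ μ i) → ∑ i, μ i = 1 → (∀ i j, 0 ≤ P i j) → (∀ i, ∑ j, P i j = 1) →
        (∀ i j, μ i * P i j = μ j * P j i) → ∀ f : S → Fin n → ℝ,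
          ∑ i, ∑ j, μ i * (P ^ t) i j *
              (Finset.univ.sup' Finset.univ_nonempty (fun k : Fin (n + 1) =>
                |∑ l : Fin n, if l.val < k.val then f j l - f i l else 0|)) ^ 2 ≤
            24 * (t : ℝ) ^ (11 / 6 : ℝ) *
              ∑ i, ∑ j, μ i * P i j * (∑ l : Fin n, |f j l - f i l|) ^ 2) := by
  refine ⟨?_, ?_⟩
  · intro X _ _
    refine ⟨⟨?_, ?_⟩, ?_, ?_⟩
    · rintro ⟨p, K, hp, hK, h⟩
      exact Vale.Agent.P125.Char.strict_of_hasMarkovType X p K hp hK h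
    · rintro ⟨t0, a, ht0, ha, h⟩
      exact Vale.Agent.P125.Dich.dichotomy X t0 a ht0 ha h
    · intro Y _ p K hp hK h
      exact Vale.Agent.P125.Char.quotient_markovType X Y p K hp hK h
    · intro Y _
      constructor
      · rintro ⟨p, K, hp, hK, h⟩
        exact ⟨⟨p, K, hp, hK, subspace_markovType X Y p K h⟩,
          ⟨p, K, hp, hK, Vale.Agent.P125.Char.quotient_markovType X Y p K (by linarith) hK h⟩⟩
      · rintro ⟨⟨p1, K1, hp1, hK1, h1⟩, ⟨p2, K2, hp2, hK2, h2⟩⟩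
        exact Vale.Agent.P125.TS.three_space X Y p1 K1 p2 K2 hp1 hK1 h1 hp2 hK2 h2
  · exact Vale.Agent.P125.P32.stWrap_75 Vale.Agent.P125.P32.stCore_32

end Vale.Agent.Results.P125.Combined
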