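import Vale.Agent.P125.Char.Main
import Vale.Agent.P125.TS.Main

namespace Vale.Agent.Results.P125.Permanence

open Vale.Agent.P125
open scoped BigOperators

/-- Markov type passes to subspaces -/
lemma subspace_markovType (X : Type*) [NormedAddCommGroup X] [NormedSpace ℝ X]
    (Y : Submodule ℝ X) (p K : ℝ) (h : HasMarkovTypeWith X p K) : HasMarkovTypeWith Y p K := by
  intro S _ _ μ P h0 h1 h2 h3 h4 f t ht
  have := h S μ P h0 h1 h2 h3 h4 (fun i => (f i : X)) t ht
  simpa only [← Submodule.coe_sub, Submodule.coe_norm] using this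

/-- Nontrivial Markov type: characterisation by one strict inequality, and the permanence
properties shared with superreflexivity.
(1) A real normed space `X` has Markov type `p` for some `p > 1` if and only if for ONE time
`t0 ≥ 2` and ONE constant `a < 1` every stationary reversible finite Markov chain and every
`f : S → X` satisfy `E ‖f(Z_t0) - f(Z_0)‖^2 ≤ a * t0^2 * E ‖f(Z_1) - f(Z_0)‖^2`
(with `a = 1` the inequality holds in every normed space).
(2) Markov type `p` with constant `K` passes from `X` to every quotient `X ⧸ Y` by a closed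
subspace, with the same `p` and `K`.
(3) Three space property: for a closed subspace `Y`, the space `X` has nontrivial Markov type
if and only if both `Y` and `X ⧸ Y` have nontrivial Markov type. -/
theorem result (X : Type*) [NormedAddCommGroup X] [NormedSpace ℝ X] :
    ((∃ p K : ℝ, 1 < p ∧ 0 ≤ K ∧ HasMarkovTypeWith X p K) ↔
      (∃ (t0 : ℕ) (a : ℝ), 2 ≤ t0 ∧ a < 1 ∧
        ∀ (S : Type) [Fintype S] [DecidableEq S] (μ : S → ℝ) (P : Matrix S S ℝ),
        (∀ i, 0 ≤ μ i) → ∑ i, μ i = 1 → (∀ i j, 0 ≤ P i j) → (∀ i, ∑ j, P i j = 1) →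
        (∀ i j, μ i * P i j = μ j * P j i) → ∀ f : S → X,
          ∑ i, ∑ j, μ i * (P ^ t0) i j * ‖f j - f i‖ ^ 2 ≤
            a * (t0 : ℝ) ^ 2 * ∑ i, ∑ j, μ i * P i j * ‖f j - f i‖ ^ 2)) ∧
    (∀ (Y : Submodule ℝ X) [IsClosed (Y : Set X)] (p K : ℝ), 0 < p → 0 ≤ K →
      HasMarkovTypeWith X p K → HasMarkovTypeWith (X ⧸ Y) p K) ∧
    (∀ (Y : Submodule ℝ X) [IsClosed (Y : Set X)],
      (∃ p K : ℝ, 1 < p ∧ 0 ≤ K ∧ HasMarkovTypeWith X p K) ↔
        ((∃ p K : ℝ, 1 < p ∧ 0 ≤ K ∧ HasMarkovTypeWith Y p K) ∧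
          (∃ p K : ℝ, 1 < p ∧ 0 ≤ K ∧ HasMarkovTypeWith (X ⧸ Y) p K))) := by
  refine ⟨⟨?_, ?_⟩, ?_, ?_⟩
  · rintro ⟨p, K, hp, hK, h⟩
    exact Vale.Agent.P125.Char.strict_of_hasMarkovType X p K hp hK h
  · rintro ⟨t0, a, ht0, ha, h⟩
    exact Vale.Agent.P125.Dich.dichotomy X t0 a ht0 ha h
  · intro Y _ p K hp hK h
    exact Vale.Agent.P125.Char.quotient_markovType X Y p K hp hK h
  · intro Y _
    constructor
    · rintro ⟨p, K, hp, hK, h⟩
      exact ⟨⟨p, K, hp, hK, subspace_markovType X Y p K h⟩,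
        ⟨p, K, hp, hK, Vale.Agent.P125.Char.quotient_markovType X Y p K (by linarith) hK h⟩⟩
    · rintro ⟨⟨p1, K1, hp1, hK1, h1⟩, ⟨p2, K2, hp2, hK2, h2⟩⟩
      exact Vale.Agent.P125.TS.three_space X Y p1 K1 p2 K2 hp1 hK1 h1 hp2 hK2 h2

end Vale.Agent.Results.P125.Permanence
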