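import Vale.Agent.P125.Basic

namespace Vale.Agent.Results.P125.SmallConst

open Vale.Agent.P125

/-- Markov type `p` with constant `K` forces the two-vector inequality
`‖x+y‖^p + ‖x-y‖^p ≤ (4 K^p - 2^(p-1)) (‖x‖^p + ‖y‖^p)`; hence, as soon as
`K^p < 3 * 2^(p-3)`, the space is uniformly non-square in the sense of James. -/
theorem result (X : Type*) [NormedAddCommGroup X] [NormedSpace ℝ X] (p K : ℝ) (hp : 0 < p)
    (h : HasMarkovTypeWith X p K) :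
    (∀ x y : X, ‖x + y‖ ^ p + ‖x - y‖ ^ p ≤ (4 * K ^ p - 2 ^ p / 2) * (‖x‖ ^ p + ‖y‖ ^ p)) ∧
    (K ^ p < 3 / 8 * 2 ^ p →
      ∃ δ : ℝ, 0 < δ ∧ ∀ x y : X, ‖x‖ ≤ 1 → ‖y‖ ≤ 1 → min ‖x + y‖ ‖x - y‖ ≤ 2 - δ) := by
  refine ⟨fun x y => clarkson_of_markovType hp h x y, fun hK => ?_⟩
  set c : ℝ := max (4 * K ^ p - 2 ^ p / 2) 0 with hc
  have hc0 : 0 ≤ c := le_max_right _ _
  have h2p : (0 : ℝ) < 2 ^ p := by positivity
  have hc2 : c < 2 ^ p := by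
    rw [hc]; exact max_lt (by linarith) h2p
  have hroot : c ^ (1 / p) < 2 := by
    have h1 : c ^ (1 / p) < ((2 : ℝ) ^ p) ^ (1 / p) :=
      Real.rpow_lt_rpow hc0 hc2 (by positivity)
    rwa [← Real.rpow_mul (by norm_num), mul_one_div_cancel hp.ne', Real.rpow_one] at h1
  refine ⟨2 - c ^ (1 / p), by linarith, fun x y hx hy => ?_⟩
  have key := clarkson_of_markovType hp h x y
  set s := min ‖x + y‖ ‖x - y‖ with hs
  have hs0 : 0 ≤ s := le_min (norm_nonneg _) (norm_nonneg _)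
  have h1 : s ^ p ≤ ‖x + y‖ ^ p := Real.rpow_le_rpow hs0 (min_le_left _ _) hp.le
  have h2 : s ^ p ≤ ‖x - y‖ ^ p := Real.rpow_le_rpow hs0 (min_le_right _ _) hp.le
  have hx1 : ‖x‖ ^ p ≤ 1 := Real.rpow_le_one (norm_nonneg _) hx hp.le
  have hy1 : ‖y‖ ^ p ≤ 1 := Real.rpow_le_one (norm_nonneg _) hy hp.le
  have hx0 : 0 ≤ ‖x‖ ^ p := by positivity
  have hy0 : 0 ≤ ‖y‖ ^ p := by positivity
  have h3 : (4 * K ^ p - 2 ^ p / 2) * (‖x‖ ^ p + ‖y‖ ^ p) ≤ c * 2 := by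
    calc (4 * K ^ p - 2 ^ p / 2) * (‖x‖ ^ p + ‖y‖ ^ p) ≤ c * (‖x‖ ^ p + ‖y‖ ^ p) :=
          mul_le_mul_of_nonneg_right (le_max_left _ _) (by positivity)
      _ ≤ c * 2 := mul_le_mul_of_nonneg_left (by linarith) hc0
  have h4 : s ^ p ≤ c := by linarith
  have h5 : (s ^ p) ^ (1 / p) ≤ c ^ (1 / p) :=
    Real.rpow_le_rpow (by positivity) h4 (by positivity)
  rw [← Real.rpow_mul hs0, mul_one_div_cancel hp.ne', Real.rpow_one] at h5
  linarith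

end Vale.Agent.Results.P125.SmallConst
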