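import Vale.Agent.P125.Poly.James_91

namespace Vale.Agent.Results.P125.SummingJamesPoly

open scoped BigOperators

/-- The summing operators `v ↦ (v_1 + ... + v_k)_k` on `ℓ_1^n` satisfy a Markov type inequality with
a power saving, uniformly in `n`, both into `ℓ_∞` and into James' space (quadratic variation norm of
the running sums): for ALL `t ≥ 1`, ALL `n`, all stationary reversible finite Markov chains
`(S, μ, P)` and all `f : S → ℝ^n`

* `E (max_{0 ≤ k ≤ n} |sum of the first k coordinates of f(Z_t) - f(Z_0)|)^2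
    ≤ 24 * t^(11/6) * E (‖f(Z_1) - f(Z_0)‖_1)^2`;
* for every choice, for each pair of states `(i, j)`, of cut points `p_0 ≤ p_1 ≤ ... ≤ p_m ≤ n`:
  `E ∑_{r < m} (G(p_(r+1)) - G(p_r))^2 ≤ 96 * t^(11/6) * E (‖f(Z_1) - f(Z_0)‖_1)^2`, where `G(k)` is
  the sum of the first `k` coordinates of `f(Z_t) - f(Z_0)` and the cut points are those chosen for
  the pair `(Z_0, Z_t)`; with the best cut points the left side is the expectation of the square of
  the James norm.

The trivial bound is `t^2` in both cases (up to a constant). -/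
theorem result : ∀ t : ℕ, 1 ≤ t →
    ∀ (n : ℕ) (S : Type) [Fintype S] [DecidableEq S] (μ : S → ℝ) (P : Matrix S S ℝ),
      (∀ i, 0 ≤ μ i) → ∑ i, μ i = 1 → (∀ i j, 0 ≤ P i j) → (∀ i, ∑ j, P i j = 1) →
      (∀ i j, μ i * P i j = μ j * P j i) → ∀ f : S → Fin n → ℝ,
        (∑ i, ∑ j, μ i * (P ^ t) i j *
            (Finset.univ.sup' Finset.univ_nonempty (fun k : Fin (n + 1) =>
              |∑ l : Fin n, if l.val < k.val then f j l - f i l else 0|)) ^ 2 ≤
          24 * (t : ℝ) ^ (11 / 6 : ℝ) *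
            ∑ i, ∑ j, μ i * P i j * (∑ l : Fin n, |f j l - f i l|) ^ 2) ∧
        (∀ (m : S → S → ℕ) (p : S → S → ℕ → ℕ),
          (∀ i j, Monotone (p i j)) → (∀ i j r, p i j r ≤ n) →
          ∑ i, ∑ j, μ i * (P ^ t) i j * ∑ r ∈ Finset.range (m i j),
            ((∑ l : Fin n, if l.val < p i j (r + 1) then f j l - f i l else 0) -
              (∑ l : Fin n, if l.val < p i j r then f j l - f i l else 0)) ^ 2 ≤
          96 * (t : ℝ) ^ (11 / 6 : ℝ) *
            ∑ i, ∑ j, μ i * P i j * (∑ l : Fin n, |f j l - f i l|) ^ 2) :=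
  fun t ht n S _ _ μ P h0 h1 h2 h3 h4 f =>
    ⟨Vale.Agent.P125.Poly.plain58 t ht n S μ P h0 h1 h2 h3 h4 f,
      fun m p hp hpn => Vale.Agent.P125.Poly.james_poly_91 t ht n S μ P h0 h1 h2 h3 h4 f m p hp hpn⟩

end Vale.Agent.Results.P125.SummingJamesPoly
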